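import Mathlib

/-!
# Transitivity of the unitary group on unitary pairs
-/

namespace Vale.Agent.P220.R2.H356

variable {V : Type} [NormedAddCommGroup V] [InnerProductSpace ℝ V] {J : V ≃ₗᵢ[ℝ] V}

section
variable (hJ : ∀ x, J (J x) = -x)
include hJ

lemma inJ_left (x y : V) : (inner ℝ (J x) y : ℝ) = -inner ℝ x (J y) := by
  have h := J.inner_map_map (J x) y
  rw [hJ, inner_neg_left] at h
  rw [← h]

lemma inJ_self (x : V) : (inner ℝ x (J x) : ℝ) = 0 := by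
  have h := inJ_left hJ x x
  rw [real_inner_comm] at h
  linarith

end

/-- the complex reflection -/
noncomputable def cr (J : V ≃ₗᵢ[ℝ] V) (w : V) (k c s : ℝ) : V →ₗ[ℝ] V where
  toFun x := x + ((c - 1) * (k * inner ℝ x w) - s * (k * inner ℝ x (J w))) • w +
    ((c - 1) * (k * inner ℝ x (J w)) + s * (k * inner ℝ x w)) • J w
  map_add' x y := by
    simp only [inner_add_left]
    module
  map_smul' a x := by
    simp only [inner_smul_left, RingHom.id_apply, conj_trivial]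
    module

lemma cr_apply (w : V) (k c s : ℝ) (x : V) : cr J w k c s x =
    x + ((c - 1) * (k * inner ℝ x w) - s * (k * inner ℝ x (J w))) • w +
    ((c - 1) * (k * inner ℝ x (J w)) + s * (k * inner ℝ x w)) • J w := rfl

lemma cr_fix {w : V} {k c s : ℝ} {x : V} (h1 : (inner ℝ x w : ℝ) = 0)
    (h2 : (inner ℝ x (J w) : ℝ) = 0) : cr J w k c s x = x := by
  rw [cr_apply, h1, h2]
  simp

lemma cr_J (hJ : ∀ x, J (J x) = -x) (w : V) (k c s : ℝ) (x : V) :
    cr J w k c s (J x) = J (cr J w k c s x) := by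
  rw [cr_apply, cr_apply]
  simp only [map_add, map_smul, hJ, J.inner_map_map, inJ_left hJ x w]
  module

lemma cr_norm (hJ : ∀ x, J (J x) = -x) {w : V} {k c s : ℝ} (hk : k * ‖w‖ ^ 2 = 1)
    (hcs : c ^ 2 + s ^ 2 = 1) (x : V) : ‖cr J w k c s x‖ = ‖x‖ := by
  have h0 : ‖cr J w k c s x‖ ^ 2 = ‖x‖ ^ 2 := by
    rw [← real_inner_self_eq_norm_sq, cr_apply]
    simp only [inner_add_left, inner_add_right, inner_smul_left, inner_smul_right,
      conj_trivial, J.inner_map_map, real_inner_self_eq_norm_sq, inJ_self hJ,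
      real_inner_comm w (J w), real_inner_comm x w, real_inner_comm x (J w)]
    have e1 : (inner ℝ w x : ℝ) = inner ℝ x w := real_inner_comm x w
    have e2 : (inner ℝ (J w) x : ℝ) = inner ℝ x (J w) := real_inner_comm x (J w)
    try rw [e1]
    try rw [e2]
    set p := (inner ℝ x w : ℝ)
    set q := (inner ℝ x (J w) : ℝ)
    set n := ‖w‖ ^ 2
    have hs : s ^ 2 = 1 - c ^ 2 := by linarith
    have hkn : k * n = 1 := hk
    linear_combination (k * (p ^ 2 + q ^ 2)) * (((c - 1) ^ 2 + s ^ 2) * hkn + hcs)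
  exact (pow_left_inj₀ (norm_nonneg _) (norm_nonneg _) two_ne_zero).1 h0

lemma cr_equiv [FiniteDimensional ℝ V] (hJ : ∀ x, J (J x) = -x) {w : V} {k c s : ℝ}
    (hk : k * ‖w‖ ^ 2 = 1) (hcs : c ^ 2 + s ^ 2 = 1) :
    ∃ g : V ≃ₗᵢ[ℝ] V, ∀ x, g x = cr J w k c s x :=
  ⟨LinearIsometry.toLinearIsometryEquiv ⟨cr J w k c s, cr_norm hJ hk hcs⟩ rfl, fun _ => rfl⟩

lemma move [FiniteDimensional ℝ V] (hJ : ∀ x, J (J x) = -x) {a b : V} (ha : ‖a‖ = 1)
    (hb : ‖b‖ = 1) : ∃ g : V ≃ₗᵢ[ℝ] V, (∀ x, g (J x) = J (g x)) ∧ g a = b ∧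
      ∀ x, (inner ℝ x a : ℝ) = 0 → (inner ℝ x (J a) : ℝ) = 0 → (inner ℝ x b : ℝ) = 0 →
        (inner ℝ x (J b) : ℝ) = 0 → g x = x := by
  -- the phase
  obtain ⟨c, s, hcs, hph⟩ : ∃ c s : ℝ, c ^ 2 + s ^ 2 = 1 ∧
      c * inner ℝ a (J b) + s * inner ℝ a b = (0 : ℝ) := by
    set p := (inner ℝ a b : ℝ)
    set q := (inner ℝ a (J b) : ℝ)
    by_cases h : p ^ 2 + q ^ 2 = 0
    · refine ⟨1, 0, by norm_num, ?_⟩
      have : q = 0 := by nlinarith [sq_nonneg p, sq_nonneg q]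
      rw [this]; ring
    · have hpos : 0 < p ^ 2 + q ^ 2 := lt_of_le_of_ne (by positivity) (Ne.symm h)
      set ρ := Real.sqrt (p ^ 2 + q ^ 2)
      have hρ : ρ ^ 2 = p ^ 2 + q ^ 2 := Real.sq_sqrt hpos.le
      have hρ0 : ρ ≠ 0 := (Real.sqrt_pos.2 hpos).ne'
      refine ⟨p / ρ, -q / ρ, ?_, ?_⟩
      · field_simp
        rw [hρ]
      · field_simp
        ring
  obtain ⟨g₁, hg₁⟩ := cr_equiv (J := J) hJ (w := a) (k := 1) (c := c) (s := s)
    (by rw [ha]; norm_num) hcs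
  set a' := g₁ a with ha'
  have ha1 : a' = c • a + s • J a := by
    rw [ha', hg₁, cr_apply, inJ_self hJ, real_inner_self_eq_norm_sq, ha]
    module
  have ha'n : ‖a'‖ = 1 := by rw [ha', g₁.norm_map, ha]
  have hreal : (inner ℝ a' (J b) : ℝ) = 0 := by
    rw [ha1, inner_add_left, inner_smul_left, inner_smul_left, J.inner_map_map]
    simpa using hph
  have hJ1 : ∀ x, g₁ (J x) = J (g₁ x) := fun x => by rw [hg₁, hg₁, cr_J hJ]
  have hfix1 : ∀ x, (inner ℝ x a : ℝ) = 0 → (inner ℝ x (J a) : ℝ) = 0 → g₁ x = x :=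
    fun x h1 h2 => by rw [hg₁, cr_fix h1 h2]
  by_cases hw : a' - b = 0
  · exact ⟨g₁, hJ1, sub_eq_zero.1 hw, fun x h1 h2 _ _ => hfix1 x h1 h2⟩
  · set w := a' - b with hwd
    have hwn : ‖w‖ ^ 2 ≠ 0 := pow_ne_zero _ (norm_ne_zero_iff.2 hw)
    obtain ⟨g₂, hg₂⟩ := cr_equiv (J := J) hJ (w := w) (k := (‖w‖ ^ 2)⁻¹) (c := -1) (s := 0)
      (inv_mul_cancel₀ hwn) (by norm_num)
    have hww : ‖w‖ ^ 2 = 2 - 2 * inner ℝ a' b := by
      rw [hwd, norm_sub_sq_real, ha'n, hb]; ring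
    have h1 : (inner ℝ a' w : ℝ) = 1 - inner ℝ a' b := by
      rw [hwd, inner_sub_right, real_inner_self_eq_norm_sq, ha'n]; ring
    have h2 : (inner ℝ a' (J w) : ℝ) = 0 := by
      rw [hwd, map_sub, inner_sub_right, inJ_self hJ, hreal]; ring
    have h3 : g₂ a' = b := by
      rw [hg₂, cr_apply, h1, h2]
      have h4 : (-1 - 1) * ((‖w‖ ^ 2)⁻¹ * (1 - inner ℝ a' b)) -
          0 * ((‖w‖ ^ 2)⁻¹ * 0) = (-1 : ℝ) := by
        have h5 : (1 - inner ℝ a' b : ℝ) = ‖w‖ ^ 2 / 2 := by rw [hww]; ring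
        rw [h5]
        field_simp
        ring
      rw [h4, hwd]
      simp
    refine ⟨g₁.trans g₂, ?_, ?_, ?_⟩
    · intro x
      rw [LinearIsometryEquiv.trans_apply, LinearIsometryEquiv.trans_apply, hJ1, hg₂, hg₂,
        cr_J hJ]
    · rw [LinearIsometryEquiv.trans_apply]
      exact h3
    · intro x h4 h5 h6 h7
      rw [LinearIsometryEquiv.trans_apply, hfix1 x h4 h5, hg₂]
      apply cr_fix
      · rw [hwd, ha1]
        simp only [inner_sub_right, inner_add_right, inner_smul_right, h4, h5, h6]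
        ring
      · rw [hwd, ha1]
        simp only [map_sub, map_add, map_smul, hJ, inner_sub_right, inner_add_right,
          inner_smul_right, inner_neg_right, h4, h5, h7]
        ring

theorem row_U {V : Type} [NormedAddCommGroup V] [InnerProductSpace ℝ V] [FiniteDimensional ℝ V]
    {J : V ≃ₗᵢ[ℝ] V} (hJ : ∀ x, J (J x) = -x) {e u e' u' : V}
    (he : ‖e‖ = 1) (hu : ‖u‖ = 1) (heu : inner ℝ e u = (0 : ℝ)) (heJ : inner ℝ e (J u) = (0 : ℝ))
    (he' : ‖e'‖ = 1) (hu' : ‖u'‖ = 1) (heu' : inner ℝ e' u' = (0 : ℝ))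
    (heJ' : inner ℝ e' (J u') = (0 : ℝ)) :
    ∃ g : V ≃ₗᵢ[ℝ] V, (∀ x, g (J x) = J (g x)) ∧ g e' = e ∧ g u' = u := by
  obtain ⟨g₁, h1, h2, -⟩ := move hJ he' he
  have hu1 : ‖g₁ u'‖ = 1 := by rw [g₁.norm_map, hu']
  obtain ⟨g₂, h3, h4, h5⟩ := move hJ hu1 hu
  have h6 : g₂ e = e := by
    apply h5 e
    · rw [← h2, g₁.inner_map_map, heu']
    · rw [← h2, ← h1, g₁.inner_map_map, heJ']
    · exact heu
    · exact heJ
  refine ⟨g₁.trans g₂, ?_, ?_, ?_⟩
  · intro x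
    rw [LinearIsometryEquiv.trans_apply, LinearIsometryEquiv.trans_apply, h1, h3]
  · rw [LinearIsometryEquiv.trans_apply, h2, h6]
  · rw [LinearIsometryEquiv.trans_apply, h4]

end Vale.Agent.P220.R2.H356
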